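import Vale.Agent.P068.Graph

namespace Vale.Agent.Results.P068.Main

open Vale.Agent.P068
open scoped Matroid

theorem result :
    (∃ M N : Matroid ℕ, M.E = Set.univ ∧ N.E = Set.univ ∧ M✶ = M ∧ N✶ = N ∧
      IsPartitional M ∧ IsPartitional N ∧
      ¬ HasPackingCovering Set.univ (fun i : Bool => cond i N M) ∧
      ¬ SatisfiesIntersection Set.univ M N) ∧
    ¬ (∀ (α Θ : Type) (E : Set α) (M : Θ → Matroid α), (∀ i, (M i).E = E) →
      HasPackingCovering E M) ∧
    ¬ (∀ (α : Type) (E : Set α) (M N : Matroid α), M.E = E → N.E = E →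
      SatisfiesIntersection E M N) := by
  refine ⟨⟨MM false, MM true, rfl, rfl, pm_dual _, pm_dual _, pm_partitional _, pm_partitional _,
    ?_, no_inter⟩, fun h => no_pc (h _ _ _ _ fun _ => rfl), fun h => no_inter (h _ _ _ _ rfl rfl)⟩
  have : (fun i : Bool => cond i (MM true) (MM false)) = MM := by
    funext i; cases i <;> rfl
  rw [this]; exact no_pc

end Vale.Agent.Results.P068.Main
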